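import Mathlib
open Finset

namespace Vale.Agent.Results.P038.DenseCase

theorem result {V : Type*} [Finite V] [Nonempty V] (adj : V → V → Prop)
    (horient : ∀ u v, adj u v → ¬ adj v u) (δ : ℕ)
    (hδ : ∀ v, δ ≤ {u | adj v u}.ncard) (hn : Nat.card V ≤ 2 * δ + 2) :
    ∃ v, {u | adj v u}.ncard ≤ {w | w ≠ v ∧ ¬ adj v w ∧ ∃ u, adj v u ∧ adj u w}.ncard := by
  classical
  have : Fintype V := Fintype.ofFinite V
  set Nout : V → Finset V := fun v => univ.filter (fun u => adj v u) with hNout
  set Nin : V → Finset V := fun v => univ.filter (fun u => adj u v) with hNin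
  set N2 : V → Finset V := fun v =>
    univ.filter (fun w => w ≠ v ∧ ¬ adj v w ∧ ∃ u, adj v u ∧ adj u w) with hN2
  set Z : V → Finset V := fun v =>
    univ.filter (fun w => w ≠ v ∧ ¬ adj v w ∧ ¬ ∃ u, adj v u ∧ adj u w) with hZ
  set Q : V → Finset V := fun w => univ.filter (fun x => x ≠ w ∧ ¬ adj x w) with hQ
  set K : V → Finset V := fun w => univ.filter (fun v => w ∈ Z v) with hK
  have e1 : ∀ v, {u | adj v u}.ncard = (Nout v).card := by
    intro v; rw [← Set.ncard_coe_finset]; congr 1; ext; simp [hNout]
  have e2 : ∀ v, {w | w ≠ v ∧ ¬ adj v w ∧ ∃ u, adj v u ∧ adj u w}.ncard = (N2 v).card := by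
    intro v; rw [← Set.ncard_coe_finset]; congr 1; ext; simp [hN2]
  simp_rw [e1] at hδ
  simp_rw [e1, e2]
  rw [Nat.card_eq_fintype_card] at hn
  set N := Fintype.card V with hN
  have hNpos : 0 < N := Fintype.card_pos
  have hirr : ∀ v, ¬ adj v v := fun v h => horient v v h h
  -- partition of the vertices other than v
  have F3 : ∀ v, (Nout v).card + (N2 v).card + (Z v).card + 1 = N := by
    intro v
    have h1 : (univ : Finset V) = insert v (Nout v ∪ N2 v ∪ Z v) := by
      ext w
      simp only [mem_univ, mem_insert, mem_union, hNout, hN2, hZ, mem_filter, true_and, true_iff]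
      by_cases hw : w = v
      · left; exact hw
      · right
        by_cases ha : adj v w
        · left; left; exact ha
        · by_cases hp : ∃ u, adj v u ∧ adj u w
          · left; right; exact ⟨hw, ha, hp⟩
          · right; exact ⟨hw, ha, hp⟩
    have d1 : Disjoint (Nout v) (N2 v) := by
      rw [Finset.disjoint_left]; intro w h1 h2
      simp only [hNout, hN2, mem_filter, mem_univ, true_and] at h1 h2
      exact h2.2.1 h1
    have d2 : Disjoint (Nout v ∪ N2 v) (Z v) := by
      rw [Finset.disjoint_left]; intro w h1 h2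
      simp only [hNout, hN2, hZ, mem_union, mem_filter, mem_univ, true_and] at h1 h2
      rcases h1 with h1 | h1
      · exact h2.2.1 h1
      · exact h2.2.2 h1.2.2
    have d3 : v ∉ Nout v ∪ N2 v ∪ Z v := by
      simp only [hNout, hN2, hZ, mem_union, mem_filter, mem_univ, true_and, not_or]
      exact ⟨⟨hirr v, fun h => h.1 rfl⟩, fun h => h.1 rfl⟩
    have : N = (insert v (Nout v ∪ N2 v ∪ Z v)).card := by rw [← h1, card_univ]
    rw [this, card_insert_of_notMem d3, card_union_of_disjoint d2, card_union_of_disjoint d1]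
  have F2 : ∀ w, (Nin w).card + (Q w).card + 1 = N := by
    intro w
    have h1 : (univ : Finset V) = insert w (Nin w ∪ Q w) := by
      ext x
      simp only [mem_univ, mem_insert, mem_union, hNin, hQ, mem_filter, true_and, true_iff]
      by_cases hx : x = w
      · left; exact hx
      · right
        by_cases ha : adj x w
        · left; exact ha
        · right; exact ⟨hx, ha⟩
    have d1 : Disjoint (Nin w) (Q w) := by
      rw [Finset.disjoint_left]; intro x h1 h2
      simp only [hNin, hQ, mem_filter, mem_univ, true_and] at h1 h2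
      exact h2.2 h1
    have d3 : w ∉ Nin w ∪ Q w := by
      simp only [hNin, hQ, mem_union, mem_filter, mem_univ, true_and, not_or]
      exact ⟨hirr w, fun h => h.1 rfl⟩
    have : N = (insert w (Nin w ∪ Q w)).card := by rw [← h1, card_univ]
    rw [this, card_insert_of_notMem d3, card_union_of_disjoint d1]
  have hNQ : ∀ w, Nout w ⊆ Q w := by
    intro w x hx
    simp only [hNout, hQ, mem_filter, mem_univ, true_and] at hx ⊢
    exact ⟨fun h => hirr w (h ▸ hx), horient _ _ hx⟩
  -- double counting
  have F1 : ∑ v, (Nout v).card = ∑ v, (Nin v).card := by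
    simp only [hNout, hNin, card_filter]
    rw [Finset.sum_comm]
  have F4 : ∑ v, (Z v).card = ∑ w, (K w).card := by
    have h1 : ∀ v, (Z v).card = ∑ w, if w ∈ Z v then 1 else 0 := by
      intro v; rw [← card_filter]; congr 1; ext; simp
    simp only [h1, hK, card_filter]
    rw [Finset.sum_comm]
  -- the key bound on K w
  have F5 : ∀ w, (K w).Nonempty → (K w).card + 1 + 2 * δ ≤ 2 * (Q w).card := by
    intro w hne
    have hKQ : K w ⊆ Q w := by
      intro v hv
      simp only [hK, hZ, hQ, mem_filter, mem_univ, true_and] at hv ⊢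
      exact ⟨fun h => hv.1 h.symm, hv.2.1⟩
    have hout : ∀ v ∈ K w, Nout v ⊆ Q w := by
      intro v hv u hu
      simp only [hK, hZ, hQ, hNout, mem_filter, mem_univ, true_and] at hv hu ⊢
      exact ⟨fun h => hv.2.1 (h ▸ hu), fun h => hv.2.2 ⟨u, hu, h⟩⟩
    have hdeg : ∀ v ∈ K w, δ ≤ (Nout v ∩ K w).card + ((Q w).card - (K w).card) := by
      intro v hv
      have h1 : (Nout v).card = (Nout v ∩ K w).card + (Nout v \ K w).card := by
        rw [add_comm]; exact (card_sdiff_add_card_inter _ _).symm
      have h2 : (Nout v \ K w).card ≤ (Q w \ K w).card :=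
        card_le_card (sdiff_subset_sdiff (hout v hv) Subset.rfl)
      have h3 : (Q w \ K w).card = (Q w).card - (K w).card := card_sdiff_of_subset hKQ
      have := hδ v
      omega
    -- arcs inside K w
    have harcs : 2 * ∑ v ∈ K w, (Nout v ∩ K w).card ≤ (K w).card * ((K w).card - 1) := by
      set E : Finset (V × V) := (K w ×ˢ K w).filter (fun p => adj p.1 p.2) with hE
      have hEc : ∑ v ∈ K w, (Nout v ∩ K w).card = E.card := by
        rw [hE, card_filter, sum_product]
        apply Finset.sum_congr rfl; intro v _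
        rw [← card_filter]
        congr 1
        ext u
        simp only [hNout, mem_inter, mem_filter, mem_univ, true_and]
        tauto
      set E' : Finset (V × V) := E.image Prod.swap with hE'
      have hE'c : E'.card = E.card := card_image_of_injective _ Prod.swap_injective
      have hdisj : Disjoint E E' := by
        rw [Finset.disjoint_left]
        intro p hp hp'
        simp only [hE', hE, mem_image, mem_filter, mem_product] at hp hp'
        obtain ⟨q, hq, rfl⟩ := hp'
        exact horient _ _ hq.2 hp.2
      have hsub : E ∪ E' ⊆ (K w).offDiag := by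
        intro p hp
        rw [mem_offDiag]
        rcases mem_union.1 hp with hp | hp
        · simp only [hE, mem_filter, mem_product] at hp
          exact ⟨hp.1.1, hp.1.2, fun h => hirr p.1 (by rw [← h] at hp; exact hp.2)⟩
        · simp only [hE', hE, mem_image, mem_filter, mem_product] at hp
          obtain ⟨q, hq, rfl⟩ := hp
          exact ⟨hq.1.2, hq.1.1, fun h => hirr q.1 (by
            simp only [Prod.fst_swap, Prod.snd_swap] at h
            rw [h] at hq; exact hq.2)⟩
      have := card_le_card hsub
      rw [card_union_of_disjoint hdisj, hE'c, offDiag_card] at this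
      rw [hEc]
      have h4 : (K w).card * (K w).card - (K w).card = (K w).card * ((K w).card - 1) := by
        rw [Nat.mul_sub, mul_one]
      omega
    have hsum : (K w).card * δ ≤ ∑ v ∈ K w, (Nout v ∩ K w).card
        + (K w).card * ((Q w).card - (K w).card) := by
      calc (K w).card * δ = ∑ _v ∈ K w, δ := by rw [sum_const, smul_eq_mul]
        _ ≤ ∑ v ∈ K w, ((Nout v ∩ K w).card + ((Q w).card - (K w).card)) :=
            Finset.sum_le_sum hdeg
        _ = _ := by rw [Finset.sum_add_distrib, sum_const, smul_eq_mul]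
    have hk : 1 ≤ (K w).card := hne.card_pos
    have hkq : (K w).card ≤ (Q w).card := card_le_card hKQ
    -- arithmetic
    generalize (K w).card = kk at harcs hsum hk hkq ⊢
    generalize (Q w).card = qq at hsum hkq ⊢
    generalize ∑ v ∈ K w, (Nout v ∩ K w).card = ee at harcs hsum
    obtain ⟨k, rfl⟩ : ∃ k, kk = k + 1 := ⟨kk - 1, by omega⟩
    obtain ⟨r, rfl⟩ : ∃ r, qq = k + 1 + r := ⟨qq - (k + 1), by omega⟩
    simp only [Nat.add_sub_cancel, Nat.add_sub_cancel_left] at harcs hsum
    have h6 : 2 * ((k + 1) * δ) ≤ (k + 1) * k + 2 * ((k + 1) * r) := by omega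
    have h7 : (k + 1) * (2 * δ) ≤ (k + 1) * (k + 2 * r) := by nlinarith
    have h8 := Nat.le_of_mul_le_mul_left h7 (Nat.succ_pos k)
    omega
  by_contra hcon
  have hcon' : ∀ v, (N2 v).card < (Nout v).card := by
    intro v
    by_contra h
    exact hcon ⟨v, not_lt.1 h⟩
  have hsumN : ∑ _v : V, N = N * N := by rw [sum_const, card_univ, smul_eq_mul]
  have h1 : N * N ≤ ∑ v, (Z v).card + 2 * ∑ v, (Nout v).card := by
    rw [← hsumN, Finset.mul_sum, ← Finset.sum_add_distrib]
    apply Finset.sum_le_sum; intro v _
    have := F3 v; have := hcon' v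
    omega
  have h2' : ∑ w, (Nin w).card + ∑ w, (Q w).card + N = N * N := by
    have : ∑ w : V, ((Nin w).card + (Q w).card + 1) = N * N := by
      rw [← hsumN]; exact Finset.sum_congr rfl (fun w _ => F2 w)
    rw [Finset.sum_add_distrib, Finset.sum_add_distrib] at this
    simpa [card_univ] using this
  have h3 : ∑ w, (Nout w).card ≤ ∑ w, (Q w).card :=
    Finset.sum_le_sum (fun w _ => card_le_card (hNQ w))
  have hNN : N * N ≤ 2 * (N * δ) + 2 * N := by
    calc N * N ≤ N * (2 * δ + 2) := Nat.mul_le_mul_left N hn
      _ = 2 * (N * δ) + 2 * N := by ring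
  by_cases hK0 : ∀ w, K w = ∅
  · have : ∑ w, (K w).card = 0 := by simp [hK0]
    rw [F4, this] at h1
    omega
  · obtain ⟨w0, hw0⟩ := not_forall.1 hK0
    have hw0' : (K w0).Nonempty := Finset.nonempty_iff_ne_empty.2 hw0
    have h4 : ∑ w, ((K w).card + 2 * δ) < ∑ w, 2 * (Q w).card := by
      apply Finset.sum_lt_sum
      · intro w _
        by_cases hw : (K w).Nonempty
        · have := F5 w hw; omega
        · rw [Finset.not_nonempty_iff_eq_empty] at hw
          have := card_le_card (hNQ w)
          have := hδ w
          rw [hw, card_empty]; omega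
      · exact ⟨w0, mem_univ _, by have := F5 w0 hw0'; omega⟩
    have h5 : ∑ w, ((K w).card + 2 * δ) = ∑ w, (K w).card + 2 * (N * δ) := by
      rw [Finset.sum_add_distrib, sum_const, card_univ, smul_eq_mul, ← hN]; ring
    have h6 : ∑ w, 2 * (Q w).card = 2 * ∑ w, (Q w).card := by rw [Finset.mul_sum]
    rw [h5, h6] at h4
    rw [F4] at h1
    omega

end Vale.Agent.Results.P038.DenseCase
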