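import Mathlib
import Vale.Agent.Lib.P038.Kemperman
open Finset
open scoped Pointwise

namespace Vale.Agent.Results.P038.VertexTransitive

open Vale.Agent.Lib.P038

theorem result {V : Type*} [Finite V] (adj : V → V → Prop)
    (horient : ∀ u v, adj u v → ¬ adj v u)
    (htrans : ∀ x y : V, ∃ f : Equiv.Perm V, (∀ a b, adj (f a) (f b) ↔ adj a b) ∧ f x = y)
    (v : V) :
    {u | adj v u}.ncard ≤ {w | w ≠ v ∧ ¬ adj v w ∧ ∃ u, adj v u ∧ adj u w}.ncard := by
  classical
  have : Fintype V := Fintype.ofFinite V
  -- the automorphism group
  let Aut : Subgroup (Equiv.Perm V) :=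
    { carrier := {f | ∀ a b, adj (f a) (f b) ↔ adj a b}
      mul_mem' := by
        intro f g hf hg a b
        simp only [Equiv.Perm.coe_mul, Function.comp_apply]
        rw [hf, hg]
      one_mem' := by intro a b; simp
      inv_mem' := by
        intro f hf a b
        have := hf (f⁻¹ a) (f⁻¹ b)
        have ha : f (f⁻¹ a) = a := Equiv.apply_symm_apply f a
        have hb : f (f⁻¹ b) = b := Equiv.apply_symm_apply f b
        rw [ha, hb] at this
        exact this.symm }
  have hAut : ∀ g : Aut, ∀ a b, adj (g.1 a) (g.1 b) ↔ adj a b := fun g => g.2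
  set N1 : Finset V := univ.filter (fun u => adj v u) with hN1
  set N2 : Finset V := univ.filter (fun w => w ≠ v ∧ ¬ adj v w ∧ ∃ u, adj v u ∧ adj u w) with hN2
  have e1 : {u | adj v u}.ncard = N1.card := by
    rw [← Set.ncard_coe_finset]; congr 1; ext; simp [hN1]
  have e2 : {w | w ≠ v ∧ ¬ adj v w ∧ ∃ u, adj v u ∧ adj u w}.ncard = N2.card := by
    rw [← Set.ncard_coe_finset]; congr 1; ext; simp [hN2]
  rw [e1, e2]
  -- fibres of the orbit map
  set h : ℕ := (univ.filter (fun g : Aut => g.1 v = v)).card with hh
  have fib : ∀ t : V, (univ.filter (fun g : Aut => g.1 v = t)).card = h := by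
    intro t
    obtain ⟨f, hf, hft⟩ := htrans v t
    let F : Aut := ⟨f, hf⟩
    rw [hh]
    apply card_bij (fun g _ => F⁻¹ * g)
    · intro g hg
      simp only [mem_filter, mem_univ, true_and] at hg ⊢
      show (f⁻¹ * g.1) v = v
      simp only [Equiv.Perm.coe_mul, Function.comp_apply, hg]
      rw [← hft]; simp
    · intro a _ b _ hab
      exact mul_left_cancel hab
    · intro g hg
      simp only [mem_filter, mem_univ, true_and] at hg
      refine ⟨F * g, ?_, by simp⟩
      simp only [mem_filter, mem_univ, true_and]
      show (f * g.1) v = t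
      simp only [Equiv.Perm.coe_mul, Function.comp_apply, hg, hft]
  have cnt : ∀ T : Finset V, (univ.filter (fun g : Aut => g.1 v ∈ T)).card = T.card * h := by
    intro T
    rw [card_eq_sum_card_fiberwise (f := fun g : Aut => g.1 v) (t := T)
      (by intro g hg; simpa using hg)]
    rw [sum_congr rfl (g := fun _ => h), sum_const, smul_eq_mul]
    intro t ht
    rw [← fib t]
    congr 1
    ext g
    simp only [mem_filter, mem_univ, true_and]
    constructor
    · rintro ⟨_, h2⟩; exact h2
    · intro h2; exact ⟨h2 ▸ ht, h2⟩
  set S : Finset Aut := univ.filter (fun g : Aut => g.1 v ∈ N1) with hS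
  have memS : ∀ g : Aut, g ∈ S ↔ adj v (g.1 v) := by intro g; simp [hS, hN1]
  have h1S : (1 : Aut) ∉ S := by
    rw [memS]; intro hc; exact horient _ _ hc hc
  have hk := kemperman (insert 1 S) (insert 1 S) (mem_insert_self _ _) (mem_insert_self _ _) (by
    intro a ha b hb hab
    rcases mem_insert.1 ha with ha | ha
    · exact ha
    · rcases mem_insert.1 hb with hb | hb
      · rw [hb] at hab; simpa using hab
      · exfalso
        have hb' : b = a⁻¹ := eq_inv_of_mul_eq_one_right hab
        rw [memS] at ha hb
        rw [hb'] at hb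
        have := (hAut a v ((a⁻¹).1 v)).2 hb
        have h3 : a.1 ((a⁻¹).1 v) = v := by
          show (a.1 * (a⁻¹).1) v = v
          simp
        rw [h3] at this
        exact horient _ _ ha this)
  have hsub : insert 1 S * insert 1 S ⊆ univ.filter (fun g : Aut => g.1 v ∈ insert v (N1 ∪ N2)) := by
    intro x hx
    obtain ⟨a, ha, b, hb, rfl⟩ := mem_mul.1 hx
    simp only [mem_filter, mem_univ, true_and, mem_insert, mem_union]
    rcases mem_insert.1 ha with ha | ha
    · rcases mem_insert.1 hb with hb | hb
      · left; rw [ha, hb]; simp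
      · right; left; rw [ha, one_mul]; simpa [hS] using hb
    · rcases mem_insert.1 hb with hb | hb
      · right; left; rw [hb, mul_one]; simpa [hS] using ha
      · rw [memS] at ha hb
        have h2 : adj (a.1 v) ((a * b).1 v) := by
          have := (hAut a v (b.1 v)).2 hb
          exact this
        by_cases hv : (a * b).1 v = v
        · left; exact hv
        · right
          by_cases hadj : adj v ((a * b).1 v)
          · left
            simp only [hN1, mem_filter, mem_univ, true_and]
            exact hadj
          · right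
            simp only [hN2, mem_filter, mem_univ, true_and]
            exact ⟨hv, hadj, _, ha, h2⟩
  have hc1 := card_le_card hsub
  rw [cnt] at hc1
  have hc2 : (insert v (N1 ∪ N2)).card ≤ 1 + N1.card + N2.card := by
    calc (insert v (N1 ∪ N2)).card ≤ (N1 ∪ N2).card + 1 := card_insert_le _ _
      _ ≤ N1.card + N2.card + 1 := by
        have := card_union_le N1 N2
        omega
      _ = 1 + N1.card + N2.card := by ring
  have hc3 : (insert 1 S).card = N1.card * h + 1 := by
    rw [card_insert_of_notMem h1S, hS, cnt]
  rw [hc3] at hk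
  by_contra hcon
  rw [not_le] at hcon
  have h5 : (insert v (N1 ∪ N2)).card * h ≤ (2 * N1.card) * h :=
    Nat.mul_le_mul_right h (by omega)
  nlinarith

end Vale.Agent.Results.P038.VertexTransitive
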